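import Vale.Agent.P166A.Final

/-!
# P166: the limiting pressure depends only on the limiting spectral law, and monotonically so
-/

open MeasureTheory Matrix Filter

namespace Vale.Agent.Results.P166.DependsOnLaw

open Vale.Agent.P166A

theorem result (β : ℝ) (hβ : 0 ≤ β) :
    (∀ (μ : Measure ℝ) (lam lam' : ∀ N : ℕ, Fin N → ℝ), Admissible μ lam → Admissible μ lam' →
      (∀ c : ℝ, ConvInProb β lam c ↔ ConvInProb β lam' c) ∧
      (∀ ε : ℝ, 0 < ε → ∀ᶠ N : ℕ in atTop, ∀ h : ℝ → ℝ, LipschitzWith 1 h →
        |(∫ O : Matrix.orthogonalGroup (Fin N) ℝ,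
            h (pressure N β (lam N) (O : Matrix (Fin N) (Fin N) ℝ)) ∂(haarO N)) -
          ∫ O : Matrix.orthogonalGroup (Fin N) ℝ,
            h (pressure N β (lam' N) (O : Matrix (Fin N) (Fin N) ℝ)) ∂(haarO N)| ≤ ε)) ∧
    (∀ (μ μ' : Measure ℝ) (lam lam' : ∀ N : ℕ, Fin N → ℝ), Admissible μ lam →
      Admissible μ' lam' → (∀ t : ℝ, ∫ x, max (x - t) 0 ∂μ ≤ ∫ x, max (x - t) 0 ∂μ') →
      ∀ ε : ℝ, 0 < ε → ∀ᶠ N : ℕ in atTop,
        expectedPressure N β (lam N) ≤ expectedPressure N β (lam' N) + ε) := by
  refine ⟨?_, ?_⟩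
  · intro μ lam lam' h h'
    have hs := srt_admissible h
    have hs' := srt_admissible h'
    have h1 := L1_tendsto hβ hs hs' (srt_antitone lam) (srt_antitone lam')
    have h2 := L1_tendsto hβ hs' hs (srt_antitone lam') (srt_antitone lam)
    refine ⟨?_, ?_⟩
    · intro c
      rw [← conv_srt_iff β lam c, ← conv_srt_iff β lam' c]
      exact ⟨conv_of_L1 h1, conv_of_L1 h2⟩
    · intro ε hε
      filter_upwards [h1.eventually (gt_mem_nhds hε)] with N hN g hg
      have e1 := integral_pressure_perm β (lam N) (Tuple.sort (fun i => -lam N i)) g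
      have e2 := integral_pressure_perm β (lam' N) (Tuple.sort (fun i => -lam' N i)) g
      rw [← e1, ← e2]
      have c1 : Continuous fun O : Matrix.orthogonalGroup (Fin N) ℝ =>
          g (pressure N β (srt lam N) (O : Matrix (Fin N) (Fin N) ℝ)) :=
        hg.continuous.comp (cont_pressure β (srt lam N))
      have c2 : Continuous fun O : Matrix.orthogonalGroup (Fin N) ℝ =>
          g (pressure N β (srt lam' N) (O : Matrix (Fin N) (Fin N) ℝ)) :=
        hg.continuous.comp (cont_pressure β (srt lam' N))
      have e3 : (∫ O : Matrix.orthogonalGroup (Fin N) ℝ,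
            g (pressure N β (srt lam N) (O : Matrix (Fin N) (Fin N) ℝ)) ∂(haarO N)) -
          ∫ O : Matrix.orthogonalGroup (Fin N) ℝ,
            g (pressure N β (srt lam' N) (O : Matrix (Fin N) (Fin N) ℝ)) ∂(haarO N) =
          ∫ O : Matrix.orthogonalGroup (Fin N) ℝ,
            (g (pressure N β (srt lam N) (O : Matrix (Fin N) (Fin N) ℝ)) -
            g (pressure N β (srt lam' N) (O : Matrix (Fin N) (Fin N) ℝ))) ∂(haarO N) :=
        (integral_sub (integrable_of_cont c1) (integrable_of_cont c2)).symm
      have e4 : |∫ O : Matrix.orthogonalGroup (Fin N) ℝ,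
            (g (pressure N β (srt lam N) (O : Matrix (Fin N) (Fin N) ℝ)) -
            g (pressure N β (srt lam' N) (O : Matrix (Fin N) (Fin N) ℝ))) ∂(haarO N)| ≤
          ∫ O : Matrix.orthogonalGroup (Fin N) ℝ,
            |pressure N β (srt lam N) (O : Matrix (Fin N) (Fin N) ℝ) -
            pressure N β (srt lam' N) (O : Matrix (Fin N) (Fin N) ℝ)| ∂(haarO N) := by
        refine (abs_integral_le_integral_abs).trans ?_
        refine integral_mono (integrable_of_cont (c1.sub c2).abs)
          (integrable_of_cont ((cont_pressure β (srt lam N)).sub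
            (cont_pressure β (srt lam' N))).abs) fun O => ?_
        have h5 := hg.dist_le_mul (pressure N β (srt lam N) (O : Matrix (Fin N) (Fin N) ℝ))
          (pressure N β (srt lam' N) (O : Matrix (Fin N) (Fin N) ℝ))
        simpa [Real.dist_eq] using h5
      have e5 := e4.trans hN.le
      rw [← e3] at e5
      exact e5
  · intro μ μ' lam lam' h h' hicx ε hε
    have hs := srt_admissible h
    have hs' := srt_admissible h'
    have hκ : 0 < ε / (β + 1) := by positivity
    filter_upwards [psum_icx hs hs' (srt_antitone lam') hicx hκ, eventually_gt_atTop 0]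
      with N h1 h2
    have h3 := expectedPressure_le h2 hβ (srt_antitone lam N) h1
    have e1 := expectedPressure_perm β (lam N) (Tuple.sort (fun i => -lam N i))
    have e2 := expectedPressure_perm β (lam' N) (Tuple.sort (fun i => -lam' N i))
    have e1' : expectedPressure N β (srt lam N) = expectedPressure N β (lam N) := e1
    have e2' : expectedPressure N β (srt lam' N) = expectedPressure N β (lam' N) := e2
    rw [e1', e2'] at h3
    have h5 : ε / (β + 1) * β / 2 ≤ ε := by
      rw [div_mul_eq_mul_div, div_div, div_le_iff₀ (by positivity)]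
      nlinarith
    linarith

end Vale.Agent.Results.P166.DependsOnLaw
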